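import Vale.Agent.P032.H800.WP30.AD

/-!
# P032: hexagons around a centre with six colours, box tables (WP30, rows A0)
-/

open Vale.Agent.P032.Words.Trie

namespace Vale.Agent.P032.H800.WP30.A

theorem k0 : chkQ0 D J R 50 T = true := by decide +kernel
theorem c0 : csP D J T 0 = true := by decide +kernel
theorem c3 : csP D J T 3 = true := by decide +kernel
theorem c6 : csP D J T 6 = true := by decide +kernel
theorem c9 : csP D J T 9 = true := by decide +kernel
theorem c12 : csP D J T 12 = true := by decide +kernel
theorem c15 : csP D J T 15 = true := by decide +kernel
theorem c18 : csP D J T 18 = true := by decide +kernel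
theorem c21 : csP D J T 21 = true := by decide +kernel

end Vale.Agent.P032.H800.WP30.A
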